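import Vale.Agent.P246.R2.H31.TopChi
import Vale.Agent.P246.R2.H429.Defs4

/-! # P246: assembly of the rows of the fourth wave (wedges with two-spheres) -/

set_option linter.all false

namespace Vale.Agent.P246.R2.H855

open Topology Metric Set Vale.Agent.P246 Vale.Agent.P246.T Vale.Agent.P246.H429
  Vale.Agent.P246.R2.H31T

theorem built_image {X W : Type} [TopologicalSpace X] [TopologicalSpace W] (j : C(X, W))
    (hj : Function.Injective j) {C B : Set X} (h : Built C B) : Built (j '' C) (j '' B) := by
  induction h with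
  | base => exact Built.base
  | cell n Φ _ hat ih =>
    refine Built.cell n (j.comp Φ) ih ⟨?_, ?_, ?_, ?_⟩
    · intro x hx
      exact ⟨_, hat.bdry x hx, rfl⟩
    · rintro x hx ⟨a, ha, hax⟩
      have hax' : a = Φ x := hj hax
      rw [hax'] at ha
      exact hat.int x hx ha
    · intro x y hx hy hxy
      exact hat.inj x y hx hy (hj hxy)
    · rw [hat.eq, image_union]
      congr 1
      rw [ContinuousMap.coe_comp, range_comp]

theorem built_sph {W : Type} [TopologicalSpace W] {A C : Set W} (h : Built A C) {B : Set W}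
    {t : ℕ} (hS : Sph C B t) : Built A B := by
  induction hS with
  | base => exact h
  | cell Φ a _ _ _ hat ih => exact Built.cell 2 Φ ih hat

/-- the inclusion of `X` in the wedge -/
def jX (X : Type) [TopologicalSpace X] (x : X) (s : S2) (t : ℕ) : C(X, WedgeS2 X x s t) :=
  ⟨fun z => ⟨(z, fun _ => s), Or.inl fun _ => rfl⟩, by
    refine Continuous.subtype_mk ?_ _
    exact continuous_id.prodMk continuous_const⟩

theorem jX_inj (X : Type) [TopologicalSpace X] (x : X) (s : S2) (t : ℕ) :
    Function.Injective (jX X x s t) := by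
  intro a b h
  exact congrArg (fun q : WedgeS2 X x s t => q.1.1) h

theorem jX_image (X : Type) [TopologicalSpace X] (x : X) (s : S2) (t : ℕ) :
    (jX X x s t) '' univ = inX X x s t := by
  ext q
  constructor
  · rintro ⟨z, -, rfl⟩
    intro i
    rfl
  · intro hq
    refine ⟨q.1.1, trivial, ?_⟩
    apply Subtype.ext
    refine Prod.ext rfl ?_
    funext i
    exact (hq i).symm

theorem isClosed_inX (X : Type) [TopologicalSpace X] (x : X) (s : S2) (t : ℕ) :
    IsClosed (inX X x s t) := by
  have e : inX X x s t = ⋂ i, {q : WedgeS2 X x s t | q.1.2 i = s} := by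
    ext q
    simp [inX]
  rw [e]
  refine isClosed_iInter fun i => isClosed_eq ?_ continuous_const
  exact (continuous_apply i).comp (continuous_snd.comp continuous_subtype_val)

theorem built_wedge {X : Type} [TopologicalSpace X] (x : X) (s : S2) (t : ℕ)
    (hB : Built ∅ (univ : Set X)) (hS : Sph (inX X x s t) univ t) :
    Built ∅ (univ : Set (WedgeS2 X x s t)) := by
  have h := built_image (jX X x s t) (jX_inj X x s t) hB
  rw [image_empty, jX_image] at h
  exact built_sph h hS

/-- ROW TW6 -/
theorem topWedge : SpecSph → SpecCovW → SpecSCW → SpecChW → SpecAlgW → SpecTopWedge := by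
  intro h1 h2 h3 h4 h5 G _ e hG X _ _ _ _ _ x y s t he hD hχ
  obtain ⟨hB, hcpt, hlpc⟩ := CWB.main X
  have hpc : PathConnectedSpace X := PathConnectedSpace.of_locallyPathConnectedSpace
  obtain ⟨E, _, _, _, p, hsc, hp, hH, hH3⟩ := AC.main G X x he hD
  obtain ⟨P, hP, hν⟩ := modelN (p := p) MS.main CL.main fund hp (builtN_univ (X := X))
  obtain ⟨N, hN⟩ := exists_bound (X := X)
  obtain ⟨F, _, _, _, q, ι, hq, hι, hr, heq, hpe⟩ := h2 G X E p hp y s t
  have hS := h1 X y s t
  have hcl := isClosed_inX X y s t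
  have hscC : SimplyConnectedSpace (q ⁻¹' inX X y s t : Set F) := by
    rw [← hr]
    exact (hι.toHomeomorph).symm.toHomotopyEquiv.simplyConnectedSpace
  have hscF : SimplyConnectedSpace F := h3 G (WedgeS2 X y s t) F q hq _ t hcl hS hscC
  obtain ⟨D, hD2, hE, hreal⟩ := h5 h4 G (WedgeS2 X y s t) E F q hq _ t ι hcl hS hι hr heq hH hH3
    (fun n => A1f.free hp n) P _ N hP hν hN
  obtain ⟨Pr, hPr⟩ := hG D hD2 _ hE (by rw [← cellChi_eq X N hN]; exact hχ)
  obtain ⟨ψ0, ψ1, ψ2, hψ⟩ := hreal Pr hPr
  exact realise WC.main A2.main (YD.main fund) YC.main CY.main YP.main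
    (YH.main MS.main CL.main fund) EWb.main RV.main relHur DN.main CV.main WH.main
    (built_wedge y s t hB hS) q hq Pr ψ0 ψ1 ψ2 hψ

end Vale.Agent.P246.R2.H855
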