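import Vale.Agent.P246.R2.H429.Defs

namespace Vale.Agent.P246.H855

open Vale.Agent.P246.H429

theorem sr_succ {R : Type} [Ring R] {k : ℕ} (h : SR R k) : SR R (k + 1) := by
  rintro y a ⟨b, c, hb⟩
  rw [Fin.sum_univ_castSucc] at hb
  obtain ⟨t, v, hv⟩ := h (fun i => y i.castSucc) (y (Fin.last k) * b (Fin.last k) + a * c)
    ⟨fun i => b i.castSucc, 1, by rw [mul_one, ← add_assoc]; exact hb⟩
  refine ⟨Fin.snoc (fun i => c * t i) 0, Fin.snoc v (b (Fin.last k) * ∑ i, t i * v i), ?_⟩
  rw [Fin.sum_univ_castSucc]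
  simp only [Fin.snoc_castSucc, Fin.snoc_last, mul_zero, add_zero]
  rw [← hv, Finset.mul_sum, Finset.mul_sum, ← Finset.sum_add_distrib]
  apply Finset.sum_congr rfl
  intro i _
  noncomm_ring

theorem sr_le {R : Type} [Ring R] {k l : ℕ} (hkl : k ≤ l) (h : SR R k) : SR R l := by
  induction l, hkl using Nat.le_induction with
  | base => exact h
  | succ l _ ih => exact sr_succ ih

/-- `id + f` for `f` of square zero. -/
def tv {R W : Type} [Ring R] [AddCommGroup W] [Module R W] (f : W →ₗ[R] W)
    (hf : ∀ w, f (f w) = 0) : W ≃ₗ[R] W where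
  toFun w := w + f w
  invFun w := w - f w
  map_add' a b := by rw [map_add]; abel
  map_smul' c a := by simp [smul_add]
  left_inv w := by simp [hf]
  right_inv w := by simp [hf]

theorem tv_apply {R W : Type} [Ring R] [AddCommGroup W] [Module R W] (f : W →ₗ[R] W)
    (hf : ∀ w, f (f w) = 0) (w : W) : tv f hf w = w + f w := rfl

theorem last1 {R : Type} [Ring R] {M W : Type} [AddCommGroup M] [Module R M] [AddCommGroup W]
    [Module R W] (φ : (M × R) ≃ₗ[R] W × R) (h : φ (0, 1) = (0, 1)) :
    ∃ ψ : M ≃ₗ[R] W, ∀ m, ψ m = (φ (m, 0)).1 := by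
  have h1 : ∀ s : R, φ (0, s) = (0, s) := by
    intro s
    have : ((0 : M), s) = s • ((0 : M), (1 : R)) := by simp
    rw [this, map_smul, h]
    simp
  have h2 : ∀ s : R, φ.symm (0, s) = (0, s) := by
    intro s
    rw [LinearEquiv.symm_apply_eq, h1]
  refine ⟨{ toFun := fun m => (φ (m, 0)).1, invFun := fun w => (φ.symm (w, 0)).1,
            map_add' := ?_, map_smul' := ?_, left_inv := ?_, right_inv := ?_ }, fun m => rfl⟩
  · intro a b
    have : ((a + b : M), (0 : R)) = (a, 0) + (b, 0) := by simp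
    rw [this, map_add]
    rfl
  · intro c a
    have : ((c • a : M), (0 : R)) = c • (a, 0) := by simp
    rw [this, map_smul]
    rfl
  · intro m
    have e : ((φ (m, 0)).1, (0 : R)) = φ (m, 0) - (0, (φ (m, 0)).2) := by
      ext <;> simp
    show (φ.symm ((φ (m, 0)).1, 0)).1 = m
    rw [e, map_sub, LinearEquiv.symm_apply_apply, h2]
    simp
  · intro w
    have e : ((φ.symm (w, 0)).1, (0 : R)) = φ.symm (w, 0) - (0, (φ.symm (w, 0)).2) := by
      ext <;> simp
    show (φ ((φ.symm (w, 0)).1, 0)).1 = w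
    rw [e, map_sub, LinearEquiv.apply_symm_apply, h1]
    simp

theorem key {R : Type} [Ring R] {l : ℕ} (hl : SR R l) {N Z : Type} [AddCommGroup N] [Module R N]
    [AddCommGroup Z] [Module R Z] (ν : N →ₗ[R] Z) (x : N) (hx : ν x = 0) (y : Fin l → R) (r : R)
    (lam : ((N × (Fin l → R)) × R) →ₗ[R] R) (hlam : lam ((x, y), r) = 1) :
    ∃ α : ((N × (Fin l → R)) × R) ≃ₗ[R] ((N × (Fin l → R)) × R),
      (∀ z, ν (α z).1.1 = ν z.1.1) ∧ α ((x, y), r) = ((0, 0), 1) := by
  -- the functional on coordinates
  set b : Fin l → R := fun i => lam ((0, Pi.single i 1), 0) with hb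
  set c : R := lam ((0, 0), 1) with hc
  set p : R := lam ((x, 0), 0) with hp
  have hsum : ∑ i, y i * b i + r * c + p * 1 = 1 := by
    have e : (((x, y), r) : (N × (Fin l → R)) × R) =
        ∑ i, y i • (((0 : N), (Pi.single i 1 : Fin l → R)), (0 : R)) + r • ((0, 0), 1)
          + ((x, 0), 0) := by
      have e1 : ∑ i, y i • (((0 : N), (Pi.single i 1 : Fin l → R)), (0 : R)) = ((0, y), 0) := by
        ext j
        · simp [Prod.fst_sum]
        · simp [Prod.fst_sum, Prod.snd_sum, Finset.sum_apply, Pi.single_apply]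
        · simp [Prod.snd_sum]
      rw [e1]
      simp
    have h2 := congrArg lam e
    rw [hlam, map_add, map_add, map_sum] at h2
    simp only [map_smul, smul_eq_mul] at h2
    rw [mul_one]
    exact h2.symm
  obtain ⟨t, v, hv⟩ := sr_succ hl (Fin.snoc y r) p ⟨Fin.snoc b c, 1, by
    rw [Fin.sum_univ_castSucc]
    simpa using hsum⟩
  rw [Fin.sum_univ_castSucc] at hv
  simp only [Fin.snoc_castSucc, Fin.snoc_last] at hv
  -- first move
  let q : N →ₗ[R] R := lam.comp ((LinearMap.inl R (N × (Fin l → R)) R).comp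
    (LinearMap.inl R N (Fin l → R)))
  have hq : q x = p := rfl
  let f1 : ((N × (Fin l → R)) × R) →ₗ[R] ((N × (Fin l → R)) × R) :=
    { toFun := fun z => ((0, fun i => q z.1.1 * t i.castSucc), q z.1.1 * t (Fin.last l))
      map_add' := by
        intro a b
        ext i <;> simp [add_mul]
      map_smul' := by
        intro s a
        ext i <;> simp [mul_assoc] }
  have hf1 : ∀ z, f1 (f1 z) = 0 := by
    intro z
    ext i <;> simp [f1]
  set y1 : Fin l → R := fun i => y i + p * t i.castSucc with hy1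
  set r1 : R := r + p * t (Fin.last l) with hr1
  have m1 : tv f1 hf1 ((x, y), r) = ((x, y1), r1) := by
    rw [tv_apply]
    ext i <;> simp [f1, hq, hy1, hr1]
  obtain ⟨u, w, hw⟩ := hl y1 r1 ⟨fun i => v i.castSucc, v (Fin.last l), hv⟩
  -- second move
  let f2 : ((N × (Fin l → R)) × R) →ₗ[R] ((N × (Fin l → R)) × R) :=
    { toFun := fun z => ((0, fun i => z.2 * u i), 0)
      map_add' := by
        intro a b
        ext i <;> simp [add_mul]
      map_smul' := by
        intro s a
        ext i <;> simp [mul_assoc] }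
  have hf2 : ∀ z, f2 (f2 z) = 0 := by
    intro z
    ext i <;> simp [f2]
  set y2 : Fin l → R := fun i => y1 i + r1 * u i with hy2
  have m2 : tv f2 hf2 ((x, y1), r1) = ((x, y2), r1) := by
    rw [tv_apply]
    ext i <;> simp [f2, hy2]
  -- third move
  let f3 : ((N × (Fin l → R)) × R) →ₗ[R] ((N × (Fin l → R)) × R) :=
    { toFun := fun z => ((0, 0), (∑ i, z.1.2 i * w i) * (1 - r1))
      map_add' := by
        intro a b
        ext i
        · simp
        · simp
        · simp only [Prod.fst_add, Prod.snd_add, Pi.add_apply, add_mul, Finset.sum_add_distrib]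
      map_smul' := by
        intro s a
        ext i
        · simp
        · simp
        · simp only [Prod.smul_fst, Prod.smul_snd, Pi.smul_apply, smul_eq_mul, RingHom.id_apply,
            mul_assoc, Finset.sum_mul, Finset.mul_sum] }
  have hf3 : ∀ z, f3 (f3 z) = 0 := by
    intro z
    ext i <;> simp [f3]
  have m3 : tv f3 hf3 ((x, y2), r1) = ((x, y2), 1) := by
    rw [tv_apply]
    ext i
    · simp [f3]
    · simp [f3]
    · have : (∑ i, y2 i * w i) = 1 := hw
      simp [f3, this]
  -- fourth move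
  let f4 : ((N × (Fin l → R)) × R) →ₗ[R] ((N × (Fin l → R)) × R) :=
    { toFun := fun z => ((-(z.2 • x), fun i => -(z.2 * y2 i)), 0)
      map_add' := by
        intro a b
        ext i
        · simp only [Prod.snd_add, add_smul, Prod.fst_add, neg_add]
        · simp only [Prod.snd_add, add_mul, Prod.fst_add, Pi.add_apply, neg_add]
        · simp
      map_smul' := by
        intro s a
        ext i
        · simp [mul_smul]
        · simp [mul_assoc]
        · simp }
  have hf4 : ∀ z, f4 (f4 z) = 0 := by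
    intro z
    ext i <;> simp [f4]
  have m4 : tv f4 hf4 ((x, y2), 1) = ((0, 0), 1) := by
    rw [tv_apply]
    ext i <;> simp [f4]
  refine ⟨(((tv f1 hf1).trans (tv f2 hf2)).trans (tv f3 hf3)).trans (tv f4 hf4), ?_, ?_⟩
  · intro z
    simp only [LinearEquiv.trans_apply]
    have k4 : ∀ z, ν (tv f4 hf4 z).1.1 = ν z.1.1 := by
      intro z
      rw [tv_apply]
      simp [f4, hx]
    have k3 : ∀ z, ν (tv f3 hf3 z).1.1 = ν z.1.1 := by
      intro z
      rw [tv_apply]
      simp [f3]
    have k2 : ∀ z, ν (tv f2 hf2 z).1.1 = ν z.1.1 := by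
      intro z
      rw [tv_apply]
      simp [f2]
    have k1 : ∀ z, ν (tv f1 hf1 z).1.1 = ν z.1.1 := by
      intro z
      rw [tv_apply]
      simp [f1]
    rw [k4, k3, k2, k1]
  · simp only [LinearEquiv.trans_apply]
    rw [m1, m2, m3, m4]

theorem can1 {R : Type} [Ring R] {l : ℕ} (hl : SR R l) {M N Z : Type} [AddCommGroup M]
    [Module R M] [AddCommGroup N] [Module R N] [AddCommGroup Z] [Module R Z] (μ : M →ₗ[R] Z)
    (ν : N →ₗ[R] Z) (φ : (M × R) ≃ₗ[R] (N × (Fin l → R)) × R)
    (hφ : ∀ x, ν (φ x).1.1 = μ x.1) : ∃ ψ : M ≃ₗ[R] N × (Fin l → R), ∀ x, ν (ψ x).1 = μ x := by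
  have hx : ν (φ (0, 1)).1.1 = 0 := by rw [hφ]; simp
  obtain ⟨α, hα, hα1⟩ := key hl ν (φ (0, 1)).1.1 hx (φ (0, 1)).1.2 (φ (0, 1)).2
    ((LinearMap.snd R M R).comp φ.symm.toLinearMap) (by
      have : (((φ (0, 1)).1.1, (φ (0, 1)).1.2), (φ (0, 1)).2) = φ (0, 1) := rfl
      rw [this]
      simp)
  have hα2 : (φ.trans α) (0, 1) = (0, 1) := hα1
  obtain ⟨ψ, hψ⟩ := last1 (φ.trans α) hα2
  refine ⟨ψ, fun m => ?_⟩
  rw [hψ, LinearEquiv.trans_apply, hα, hφ]

theorem can' {R : Type} [Ring R] {l : ℕ} (hl : SR R l) (Z : Type) [AddCommGroup Z] [Module R Z]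
    (n : ℕ) : ∀ (M N : Type) [AddCommGroup M] [Module R M] [AddCommGroup N] [Module R N]
    (μ : M →ₗ[R] Z) (ν : N →ₗ[R] Z)
    (φ : (M × (Fin n → R)) ≃ₗ[R] (N × (Fin l → R)) × (Fin n → R)),
    (∀ x, ν (φ x).1.1 = μ x.1) → ∃ ψ : M ≃ₗ[R] N × (Fin l → R), ∀ x, ν (ψ x).1 = μ x := by
  induction n with
  | zero =>
    intro M N _ _ _ _ μ ν φ hφ
    have z0 : ∀ f : Fin 0 → R, f = 0 := fun f => Subsingleton.elim _ _
    refine ⟨{ toFun := fun m => (φ (m, 0)).1, invFun := fun w => (φ.symm (w, 0)).1,
              map_add' := ?_, map_smul' := ?_, left_inv := ?_, right_inv := ?_ }, ?_⟩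
    · intro a b
      have : ((a + b : M), (0 : Fin 0 → R)) = (a, 0) + (b, 0) := by simp
      rw [this, map_add]
      rfl
    · intro c a
      have : ((c • a : M), (0 : Fin 0 → R)) = c • (a, 0) := by simp
      rw [this, map_smul]
      rfl
    · intro m
      show (φ.symm ((φ (m, 0)).1, 0)).1 = m
      have e : ((φ (m, 0)).1, (0 : Fin 0 → R)) = φ (m, 0) := Prod.ext rfl (z0 _).symm
      rw [e, LinearEquiv.symm_apply_apply]
    · intro w
      show (φ ((φ.symm (w, 0)).1, 0)).1 = w
      have e : ((φ.symm (w, 0)).1, (0 : Fin 0 → R)) = φ.symm (w, 0) := Prod.ext rfl (z0 _).symm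
      rw [e, LinearEquiv.apply_symm_apply]
    · intro m
      exact hφ (m, 0)
  | succ n ih =>
    intro M N _ _ _ _ μ ν φ hφ
    let A : ((M × (Fin n → R)) × R) ≃ₗ[R] M × (Fin (n + 1) → R) :=
      { toFun := fun x => (x.1.1, Fin.cons x.2 x.1.2)
        invFun := fun x => ((x.1, fun i => x.2 i.succ), x.2 0)
        map_add' := by
          intro a b
          refine Prod.ext rfl ?_
          funext i
          refine Fin.cases ?_ (fun j => ?_) i <;> simp
        map_smul' := by
          intro s a
          refine Prod.ext rfl ?_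
          funext i
          refine Fin.cases ?_ (fun j => ?_) i <;> simp
        left_inv := by
          intro x
          simp
        right_inv := by
          intro x
          refine Prod.ext rfl ?_
          funext i
          refine Fin.cases ?_ (fun j => ?_) i <;> simp }
    let B : ((N × (Fin l → R)) × (Fin (n + 1) → R)) ≃ₗ[R]
        ((N × (Fin n → R)) × (Fin l → R)) × R :=
      { toFun := fun z => (((z.1.1, fun i => z.2 i.succ), z.1.2), z.2 0)
        invFun := fun z => ((z.1.1.1, z.1.2), Fin.cons z.2 z.1.1.2)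
        map_add' := by
          intro a b
          rfl
        map_smul' := by
          intro s a
          rfl
        left_inv := by
          intro x
          refine Prod.ext rfl ?_
          funext i
          refine Fin.cases ?_ (fun j => ?_) i <;> simp
        right_inv := by
          intro x
          simp }
    obtain ⟨ψ, hψ⟩ := can1 hl (μ.comp (LinearMap.fst R M (Fin n → R)))
      (ν.comp (LinearMap.fst R N (Fin n → R))) ((A.trans φ).trans B) (by
        intro x
        exact hφ (A x))
    let C : ((N × (Fin n → R)) × (Fin l → R)) ≃ₗ[R] ((N × (Fin l → R)) × (Fin n → R)) :=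
      { toFun := fun z => ((z.1.1, z.2), z.1.2)
        invFun := fun z => ((z.1.1, z.2), z.1.2)
        map_add' := by
          intro a b
          rfl
        map_smul' := by
          intro s a
          rfl
        left_inv := by
          intro x
          rfl
        right_inv := by
          intro x
          rfl }
    exact ih M N μ ν (ψ.trans C) (fun x => hψ x)

/-- ROW C of the stable range theorem. -/
theorem can : SpecCan := by
  intro R _ k hk l hkl _ M N Z _ _ _ _ _ _ μ ν n φ hφ
  exact can' (sr_le hkl hk) Z n M N μ ν φ hφ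

end Vale.Agent.P246.H855
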